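import Vale.Agent.Lib.P153.Mirror

/-!
# P153: the mean height as a difference of side probabilities

Assume that for every admissible height `h` the vertex `x` lies on exactly one of the plus
side and the minus side.  Then the sum of `h x` over the finite set `S` of all admissible
heights equals the number of `h` with `x` on the plus side minus the number of `h` with `x`
on the minus side.
-/

namespace Vale.Agent.Results.P153.MeanFormula

open Vale.Agent.Lib.P153

open Classical in
theorem result {V : Type*} (G : SimpleGraph V) (Ap Am : Set V) (S : Finset (V → ℤ))
    (hS : ∀ h, h ∈ S ↔ Admissible G Ap Am h) (x : V)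
    (hdual : ∀ h ∈ S, (x ∈ PlusSide G Ap Am h ↔ x ∉ MinusSide G Ap Am h)) :
    ∑ h ∈ S, h x = ((S.filter (fun h => x ∈ PlusSide G Ap Am h)).card : ℤ) -
      ((S.filter (fun h => x ∈ MinusSide G Ap Am h)).card : ℤ) :=
  sum_height_eq G Ap Am S hS x hdual

end Vale.Agent.Results.P153.MeanFormula
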