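import Vale.Agent.Lib.P153.Mirror

/-!
# P153: the mean height on each side of the interface cluster

For the uniform measure on admissible heights (odd values, adjacent values differing by `0`
or `2`, `+1` on `Ap`, `-1` on `Am`) on an arbitrary graph: on the event that a vertex `x`
lies on the plus side, the mean of `h x` is exactly `1`; on the event that it lies on the
minus side, the mean of `h x` is exactly `-1`.  Both are stated as sums over the finite set
`S` of all admissible heights.
-/

namespace Vale.Agent.Results.P153.SideMean

open Vale.Agent.Lib.P153

open Classical in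
theorem result {V : Type*} (G : SimpleGraph V) (Ap Am : Set V) (S : Finset (V → ℤ))
    (hS : ∀ h, h ∈ S ↔ Admissible G Ap Am h) (x : V) :
    ∑ h ∈ S, (if x ∈ PlusSide G Ap Am h then h x - 1 else 0) = 0 ∧
      ∑ h ∈ S, (if x ∈ MinusSide G Ap Am h then h x + 1 else 0) = 0 :=
  ⟨plus_side_sum G Ap Am S hS x, minus_side_sum G Ap Am S hS x⟩

end Vale.Agent.Results.P153.SideMean
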